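import Vale.Agent.P358.Final

namespace Vale.Agent.Results.P358.Additivity
open Vale.Agent.P358 Set

theorem result (γ ν : ℝ) (hγ : γ ∈ Icc (0 : ℝ) 1) (hν : ν ∈ Icc (0 : ℝ) 1) :
    (∀ n : ℕ, 1 ≤ n → holevo (tensorPow (gad γ ν) n) = n * holevo (gad γ ν)) ∧
    capacity (gad γ ν) = holevo (gad γ ν) ∧
    IsGreatest (objective γ ν '' Icc 0 1) (capacity (gad γ ν)) ∧
    IsGreatest (holevoValues (gad γ ν)) (holevo (gad γ ν)) ∧
    (∀ n : ℕ, 1 ≤ n →
      IsGreatest (holevoValues (tensorPow (gad γ ν) n)) (holevo (tensorPow (gad γ ν) n))) ∧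
    IsGreatest (rates (gad γ ν)) (capacity (gad γ ν)) := by
  obtain ⟨q0, hq0, hmax⟩ := isCompact_Icc.exists_isMaxOn (s := Icc (0 : ℝ) 1)
    ⟨0, by simp⟩ (objective_cont γ ν).continuousOn
  have g : ∀ n : ℕ, IsGreatest (holevoValues (tensorPow (gad γ ν) n)) (n * objective γ ν q0) :=
    fun n => ⟨attained hγ hν hq0 n, bounded hγ hν (fun q hq => hmax hq) n⟩
  have hn : ∀ n : ℕ, holevo (tensorPow (gad γ ν) n) = n * objective γ ν q0 :=
    fun n => (g n).csSup_eq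
  have g1 : IsGreatest (holevoValues (gad γ ν)) (objective γ ν q0) := by
    simpa [values_one] using g 1
  have h1 : holevo (gad γ ν) = objective γ ν q0 := g1.csSup_eq
  have gr : IsGreatest (rates (gad γ ν)) (objective γ ν q0) := by
    refine ⟨⟨1, le_rfl, by simp [hn]⟩, ?_⟩
    rintro c ⟨n, hn1, rfl⟩
    have : (n : ℝ) ≠ 0 := by positivity
    rw [hn, mul_div_cancel_left₀ _ this]
  have hc : capacity (gad γ ν) = objective γ ν q0 := gr.csSup_eq
  refine ⟨fun n _ => by rw [hn, h1], by rw [hc, h1], ?_, h1 ▸ g1, fun n _ => hn n ▸ g n, hc ▸ gr⟩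
  rw [hc]
  exact ⟨⟨q0, hq0, rfl⟩, by rintro _ ⟨q, hq, rfl⟩; exact hmax hq⟩

end Vale.Agent.Results.P358.Additivity
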